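import Mathlib
import Vale.Agent.Lib.P300.Defs

namespace Vale.Agent.Results.P300.EquivariantInheritance

open scoped Manifold ContDiff
open Vale.Agent.Lib.P300

/-- **Inheritance of holomorphic convexity along equivariant holomorphic maps.**
Let `V`, `W` be complex manifolds, `Γ` a group acting on `V` by homeomorphisms with a compact
set `D` meeting every orbit (a cocompact action), `Δ` a group acting properly discontinuously
on `W`, `φ : Γ → Δ` an injective homomorphism and `f : V → W` a `φ`-equivariant holomorphic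
map.  If `W` is holomorphically convex, then so is `V`.

(For universal covers `V`, `W` of compact complex manifolds `X`, `Y` with deck groups
`Γ = π₁(X)`, `Δ = π₁(Y)` and `f` a lift of a holomorphic map `X → Y` this is the statement
that holomorphic convexity of the universal cover is inherited along `π₁`-injective maps.) -/
theorem result
    {E : Type*} [NormedAddCommGroup E] [NormedSpace ℂ E] [FiniteDimensional ℂ E]
    {V : Type*} [TopologicalSpace V] [ChartedSpace E V] [IsManifold 𝓘(ℂ, E) ω V]
    {F : Type*} [NormedAddCommGroup F] [NormedSpace ℂ F] [FiniteDimensional ℂ F]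
    {W : Type*} [TopologicalSpace W] [ChartedSpace F W] [IsManifold 𝓘(ℂ, F) ω W]
    {Γ Δ : Type*} [Group Γ] [Group Δ] [MulAction Γ V] [ContinuousConstSMul Γ V]
    [MulAction Δ W] [ProperlyDiscontinuousSMul Δ W]
    (D : Set V) (hD : IsCompact D) (hcover : ∀ x : V, ∃ γ : Γ, γ • x ∈ D)
    (φ : Γ →* Δ) (hφ : Function.Injective φ)
    (f : V → W) (hf : MDifferentiable 𝓘(ℂ, E) 𝓘(ℂ, F) f)
    (hequiv : ∀ (γ : Γ) (x : V), f (γ • x) = φ γ • f x)
    (hW : HolConvex F W) : HolConvex E V := by
  intro K hK hKne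
  -- the compact hull downstairs
  have hL : IsCompact (holHull F (f '' K)) :=
    hW (f '' K) (hK.image hf.continuous) (hKne.image f)
  have hfD : IsCompact (f '' D) := hD.image hf.continuous
  -- finitely many translates of `f D` meet the hull
  have hfin : Set.Finite {δ : Δ | (((δ • ·) '' (f '' D)) ∩ holHull F (f '' K)).Nonempty} :=
    ProperlyDiscontinuousSMul.finite_disjoint_inter_image hfD hL
  have hfinΓ : Set.Finite
      ((fun γ : Γ => φ γ) ⁻¹' {δ : Δ | (((δ • ·) '' (f '' D)) ∩ holHull F (f '' K)).Nonempty}) :=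
    Set.Finite.preimage (f := fun γ : Γ => φ γ) (hφ.injOn) hfin
  -- the preimage of the hull is covered by finitely many translates of `D`
  have hsub : holHull E K ⊆ ⋃ γ ∈ ((fun γ : Γ => φ γ) ⁻¹'
      {δ : Δ | (((δ • ·) '' (f '' D)) ∩ holHull F (f '' K)).Nonempty}), (γ • ·) '' D := by
    intro x hx
    have hfx : f x ∈ holHull F (f '' K) := holHull_subset_preimage hf K hx
    obtain ⟨γ, hγ⟩ := hcover x
    have hx' : x = γ⁻¹ • (γ • x) := by simp
    refine Set.mem_iUnion₂.2 ⟨γ⁻¹, ?_, ⟨γ • x, hγ, hx'.symm⟩⟩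
    refine ⟨f x, ⟨f (γ • x), Set.mem_image_of_mem f hγ, ?_⟩, hfx⟩
    change φ γ⁻¹ • f (γ • x) = f x
    rw [← hequiv, ← hx']
  have hcompact : IsCompact (⋃ γ ∈ ((fun γ : Γ => φ γ) ⁻¹'
      {δ : Δ | (((δ • ·) '' (f '' D)) ∩ holHull F (f '' K)).Nonempty}), (γ • ·) '' D) :=
    hfinΓ.isCompact_biUnion fun γ _ => hD.image (continuous_const_smul γ)
  exact hcompact.of_isClosed_subset (isClosed_holHull K) hsub

end Vale.Agent.Results.P300.EquivariantInheritance
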