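import Mathlib
import Vale.Agent.Lib.P300.Product

namespace Vale.Agent.Results.P300.ProductClosure

open scoped Manifold ContDiff
open Vale.Agent.Lib.P300

/-- **Products.** If complex manifolds `M` and `N` are holomorphically convex, then so is
`M × N` (with the product complex structure). -/
theorem result
    {E : Type*} [NormedAddCommGroup E] [NormedSpace ℂ E] [FiniteDimensional ℂ E]
    {M : Type*} [TopologicalSpace M] [ChartedSpace E M] [IsManifold 𝓘(ℂ, E) ω M]
    {F : Type*} [NormedAddCommGroup F] [NormedSpace ℂ F] [FiniteDimensional ℂ F]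
    {N : Type*} [TopologicalSpace N] [ChartedSpace F N] [IsManifold 𝓘(ℂ, F) ω N]
    (hM : HolConvexI 𝓘(ℂ, E) M) (hN : HolConvexI 𝓘(ℂ, F) N) :
    HolConvexI (𝓘(ℂ, E).prod 𝓘(ℂ, F)) (M × N) :=
  HolConvexI.prod hM hN

end Vale.Agent.Results.P300.ProductClosure
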