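import Mathlib
import Vale.Agent.Lib.P300.Defs

namespace Vale.Agent.Results.P300.ProperPullback

open scoped Manifold ContDiff
open Vale.Agent.Lib.P300

/-- **Holomorphic convexity is inherited along proper holomorphic maps.**
If `f : V → W` is a proper holomorphic map between complex manifolds and `W` is holomorphically
convex, then `V` is holomorphically convex. -/
theorem result
    {E : Type*} [NormedAddCommGroup E] [NormedSpace ℂ E] [FiniteDimensional ℂ E]
    {V : Type*} [TopologicalSpace V] [ChartedSpace E V] [IsManifold 𝓘(ℂ, E) ω V]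
    {F : Type*} [NormedAddCommGroup F] [NormedSpace ℂ F] [FiniteDimensional ℂ F]
    {W : Type*} [TopologicalSpace W] [ChartedSpace F W] [IsManifold 𝓘(ℂ, F) ω W]
    (f : V → W) (hf : MDifferentiable 𝓘(ℂ, E) 𝓘(ℂ, F) f) (hproper : IsProperMap f)
    (hW : HolConvex F W) : HolConvex E V :=
  HolConvex.of_isProperMap hf hproper hW

end Vale.Agent.Results.P300.ProperPullback
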